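import Vale.Agent.P235.H949.Mesh3
import Vale.Agent.P235.H646.RDec

/-!
# P235, GRID row G2: the mesh lemma, final form
-/

namespace Vale.Agent.P235.H949

open SimpleGraph Vale.Agent.P235.H134

/-- **GRID G2**: a connected graph of treewidth more than `h + k` contains a tree mesh. -/
theorem mesh (hM : MengerStmt) : MeshStmt := by
  classical
  intro k h hk hkh V _ G hG htw
  have := Fintype.ofFinite V
  by_contra hno
  obtain ⟨n, B, par, hR⟩ := exists_rdec hM hG hk (hk.trans hkh) hno
  exact htw (H646.RDec_treewidth hR)

end Vale.Agent.P235.H949
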