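import Vale.Agent.P235.H949.MeshDefs
import Vale.Agent.P235.H134.Grid.Stmts

/-!
# P235, GRID row G2: the mesh lemma (maximal `U` argument)
-/

namespace Vale.Agent.P235.H949

open SimpleGraph Vale.Agent.P235.H134
open scoped Classical

variable {V : Type}

/-- Appending a bag. -/
theorem RDec.append {G : SimpleGraph V} {U : Finset V} {w n : ℕ} {B : ℕ → Finset V} {par : ℕ → ℕ}
    (h : RDec G (U : Set V) w n B par) {i0 : ℕ} (hi0 : i0 ≤ n) {X' : Finset V}
    (hX : ∀ v ∈ X', v ∈ U → v ∈ B i0) (hcard : X'.card ≤ w + 1)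
    (hadj : ∀ u ∈ U, ∀ v ∈ X', v ∉ U → G.Adj u v → u ∈ X') :
    RDec G ((U ∪ X' : Finset V) : Set V) w (n + 1) (Function.update B (n + 1) X')
      (Function.update par (n + 1) i0) := by
  have hB : ∀ i ≤ n, Function.update B (n + 1) X' i = B i := by
    intro i hi
    exact Function.update_of_ne (by omega) _ _
  have hBn : Function.update B (n + 1) X' (n + 1) = X' := Function.update_self _ _ _
  have hP : ∀ i ≤ n, Function.update par (n + 1) i0 i = par i := by
    intro i hi
    exact Function.update_of_ne (by omega) _ _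
  have hPn : Function.update par (n + 1) i0 (n + 1) = i0 := Function.update_self _ _ _
  refine ⟨?_, ?_, ?_, ?_, ?_, ?_⟩
  · intro i hi v hv
    rw [Finset.mem_coe, Finset.mem_union]
    rcases Nat.lt_or_ge n i with h1 | h1
    · obtain rfl : i = n + 1 := by omega
      rw [hBn] at hv
      exact Or.inr hv
    · rw [hB i h1] at hv
      exact Or.inl (h.sub i h1 v hv)
  · intro v hv
    rw [Finset.mem_coe, Finset.mem_union] at hv
    rcases hv with hv | hv
    · obtain ⟨i, hi, hvi⟩ := h.cover v hv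
      exact ⟨i, by omega, by rw [hB i hi]; exact hvi⟩
    · exact ⟨n + 1, le_rfl, by rw [hBn]; exact hv⟩
  · intro u hu v hv huv
    rw [Finset.mem_coe, Finset.mem_union] at hu hv
    by_cases hu' : u ∈ U
    · by_cases hv' : v ∈ U
      · obtain ⟨i, hi, h1, h2⟩ := h.edge u hu' v hv' huv
        exact ⟨i, by omega, by rw [hB i hi]; exact h1, by rw [hB i hi]; exact h2⟩
      · have hvX := hv.resolve_left hv'
        exact ⟨n + 1, le_rfl, by rw [hBn]; exact hadj u hu' v hvX hv' huv, by rw [hBn]; exact hvX⟩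
    · have huX := hu.resolve_left hu'
      by_cases hv' : v ∈ U
      · exact ⟨n + 1, le_rfl, by rw [hBn]; exact huX,
          by rw [hBn]; exact hadj v hv' u huX hu' huv.symm⟩
      · exact ⟨n + 1, le_rfl, by rw [hBn]; exact huX, by rw [hBn]; exact hv.resolve_left hv'⟩
  · intro i h0 hi
    rcases Nat.lt_or_ge n i with h1 | h1
    · obtain rfl : i = n + 1 := by omega
      rw [hPn]; omega
    · rw [hP i h1]
      exact h.par_lt i h0 h1
  · intro i h0 hi j hj v hvi hvj
    have hBj : Function.update B (n + 1) X' j = B j := hB j (by omega)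
    rw [hBj] at hvj
    rcases Nat.lt_or_ge n i with h1 | h1
    · obtain rfl : i = n + 1 := by omega
      rw [hBn] at hvi
      rw [hPn, hB i0 hi0]
      exact hX v hvi (h.sub j (by omega) v hvj)
    · rw [hB i h1] at hvi
      have := h.par_lt i h0 h1
      rw [hP i h1, hB _ (by omega)]
      exact h.rip i h0 h1 j hj v hvi hvj
  · intro i hi
    rcases Nat.lt_or_ge n i with h1 | h1
    · obtain rfl : i = n + 1 := by omega
      rw [hBn]; exact hcard
    · rw [hB i h1]
      exact h.card i h1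

theorem crossing {r : V → V → Prop} {P : V → Prop} {a b : V} (h : Relation.ReflTransGen r a b)
    (ha : P a) (hb : ¬ P b) : ∃ x y, r x y ∧ P x ∧ ¬ P y := by
  induction h with
  | refl => exact absurd ha hb
  | @tail x y hx hxy ih =>
    by_cases hPx : P x
    · exact ⟨x, y, hxy, hPx, hb⟩
    · exact ih hPx

variable [Fintype V] {G : SimpleGraph V}

/-- The neighbourhood of `C`. -/
noncomputable def nb (G : SimpleGraph V) (C : Finset V) : Finset V :=
  Finset.univ.filter fun x => x ∉ C ∧ ∃ c ∈ C, G.Adj c x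

theorem mem_nb {C : Finset V} {x : V} : x ∈ nb G C ↔ x ∉ C ∧ ∃ c ∈ C, G.Adj c x := by
  simp [nb]

/-- `C` is a component of `G - U`. -/
structure IsComp (G : SimpleGraph V) (U C : Finset V) : Prop where
  ne : C.Nonempty
  dis : ∀ a ∈ C, a ∉ U
  conn : ∀ a ∈ C, ∀ b ∈ C, Relation.ReflTransGen (fun x y => G.Adj x y ∧ y ∈ C) a b
  closed : ∀ a ∈ C, ∀ b, G.Adj a b → b ∈ C ∨ b ∈ U

theorem IsComp.nb_sub {U C : Finset V} (h : IsComp G U C) {x : V} (hx : x ∈ nb G C) : x ∈ U := by
  rw [mem_nb] at hx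
  obtain ⟨h1, c, hc, hcx⟩ := hx
  exact (h.closed c hc x hcx).resolve_left h1

omit [Fintype V] in
theorem IsComp.cases {U C S' C' : Finset V} (h : IsComp G U C) (hS : S' ⊆ C)
    (h' : IsComp G (U ∪ S') C') : C' ⊆ C ∨ IsComp G U C' := by
  by_cases hm : ∃ a ∈ C', a ∈ C
  · left
    obtain ⟨a, ha', ha⟩ := hm
    intro b hb
    by_contra hbC
    obtain ⟨x, y, ⟨hxy, hy⟩, hx, hyC⟩ := crossing (P := fun x => x ∈ C) (h'.conn a ha' b hb) ha hbC
    rcases h.closed x hx y hxy with h1 | h1
    · exact hyC h1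
    · exact h'.dis y hy (Finset.mem_union_left _ h1)
  · right
    push Not at hm
    refine ⟨h'.ne, fun a ha hU => h'.dis a ha (Finset.mem_union_left _ hU), h'.conn, ?_⟩
    intro a ha b hab
    rcases h'.closed a ha b hab with h1 | h1
    · exact Or.inl h1
    · rw [Finset.mem_union] at h1
      rcases h1 with h1 | h1
      · exact Or.inr h1
      · exfalso
        rcases h.closed b (hS h1) a hab.symm with h2 | h2
        · exact hm a ha h2
        · exact h'.dis a ha (Finset.mem_union_left _ h2)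

theorem IsComp.nb_cases {U C S' C' : Finset V} (h : IsComp G U C)
    (h' : IsComp G (U ∪ S') C') (hsub : C' ⊆ C) {x : V} (hx : x ∈ nb G C') :
    (x ∈ nb G C ∧ x ∉ C) ∨ (x ∈ S' ∧ x ∈ C) := by
  have hx' := hx
  rw [mem_nb] at hx
  obtain ⟨h1, c, hc, hcx⟩ := hx
  by_cases hxC : x ∈ C
  · right
    refine ⟨?_, hxC⟩
    have := h'.nb_sub hx'
    rw [Finset.mem_union] at this
    exact this.resolve_left (h.dis x hxC)
  · left
    exact ⟨mem_nb.2 ⟨hxC, c, hsub hc, hcx⟩, hxC⟩

theorem IsComp.exists_mem {U C S' C' : Finset V} (h : IsComp G U C) (hS : S' ⊆ C)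
    (hSne : S'.Nonempty) (h' : IsComp G (U ∪ S') C') (hsub : C' ⊆ C) :
    ∃ s ∈ S', s ∈ nb G C' := by
  obtain ⟨a, ha⟩ := h'.ne
  obtain ⟨s, hs⟩ := hSne
  have hsC' : s ∉ C' := fun hh => h'.dis s hh (Finset.mem_union_right _ hs)
  obtain ⟨x, y, ⟨hxy, hy⟩, hx, hyC⟩ :=
    crossing (P := fun x => x ∈ C') (h.conn a (hsub ha) s (hS hs)) ha hsC'
  refine ⟨y, ?_, mem_nb.2 ⟨hyC, x, hx, hxy⟩⟩
  have h1 := h'.nb_sub (mem_nb.2 ⟨hyC, x, hx, hxy⟩ : y ∈ nb G C')
  rw [Finset.mem_union] at h1
  exact h1.resolve_left (h.dis y hy)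

/-- The connected subcubic graph attached to a component. -/
structure PreData (G : SimpleGraph V) (C W : Finset V) (E : SimpleGraph V) : Prop where
  le : E ≤ G
  inW : ∀ a b, E.Adj a b → a ∈ W
  reach : ∀ a ∈ W, ∀ b ∈ W, E.Reachable a b
  dis : ∀ a ∈ W, a ∉ C
  nbW : ∀ x ∈ nb G C, x ∈ W
  deg3 : ∀ v, (E.neighborSet v).ncard ≤ 3
  deg2 : ∀ v ∈ nb G C, (E.neighborSet v).ncard ≤ 2
  deg1 : ∃ v ∈ nb G C, (E.neighborSet v).ncard ≤ 1

theorem PreData.attach {ι : Type} {U C C' S' W : Finset V} {E : SimpleGraph V}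
    (hC : IsComp G U C) (hE : PreData G C W E) (hS : S' ⊆ C) (hSne : S'.Nonempty)
    (hC' : IsComp G (U ∪ S') C') (hsub : C' ⊆ C)
    (v : ι → ℕ → V) (t : ι → ℕ)
    (h0 : ∀ i, v i 0 ∈ nb G C) (hin : ∀ i j, 0 < j → j ≤ t i → v i j ∈ C)
    (hadj : ∀ i j, j < t i → G.Adj (v i j) (v i (j + 1)))
    (hinj : ∀ i j i' j', j ≤ t i → j' ≤ t i' → v i j = v i' j' → i = i' ∧ j = j')
    (hS1 : ∀ i j, 0 < j → j < t i → v i j ∉ S') (ht : ∀ i, 0 < t i)
    (hS2 : ∀ i, v i (t i) ∈ S') (hS3 : ∀ s ∈ S', ∃ i, v i (t i) = s)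
    (he : ∀ i, v i 0 ∈ nb G C' → t i = 1 ∧ (E.neighborSet (v i 0)).ncard ≤ 1) :
    ∃ W' E', PreData G C' W' E' := by
  set F : SimpleGraph V :=
    { Adj := fun a b => ∃ i j, j < t i ∧
        ((v i j = a ∧ v i (j + 1) = b) ∨ (v i j = b ∧ v i (j + 1) = a))
      symm := ⟨fun a b ⟨i, j, hj, h⟩ => ⟨i, j, hj, h.symm⟩⟩
      loopless := ⟨fun a ⟨i, j, hj, h⟩ => by
        rcases h with h | h <;> exact (hadj i j hj).ne (h.1.trans h.2.symm)⟩ } with hF
  have hFG : F ≤ G := by
    intro a b hab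
    obtain ⟨i, j, hj, h⟩ := hab
    rcases h with ⟨rfl, rfl⟩ | ⟨rfl, rfl⟩
    · exact hadj i j hj
    · exact (hadj i j hj).symm
  have hFn : ∀ i j, j ≤ t i → ∀ b, F.Adj (v i j) b →
      (j < t i ∧ b = v i (j + 1)) ∨ (0 < j ∧ b = v i (j - 1)) := by
    intro i j hj b hb
    obtain ⟨i', j', hj', h⟩ := hb
    rcases h with ⟨h1, h2⟩ | ⟨h1, h2⟩
    · obtain ⟨rfl, rfl⟩ := hinj i' j' i j hj'.le hj h1
      exact Or.inl ⟨hj', h2.symm⟩
    · obtain ⟨rfl, rfl⟩ := hinj i' (j' + 1) i j hj' hj h2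
      exact Or.inr ⟨by omega, by rw [Nat.add_sub_cancel]; exact h1.symm⟩
  have hFe : ∀ x, (∀ i j, j ≤ t i → v i j ≠ x) → F.neighborSet x = ∅ := by
    intro x hx
    rw [Set.eq_empty_iff_forall_notMem]
    intro b hb
    obtain ⟨i, j, hj, h⟩ := hb
    rcases h with ⟨h1, h2⟩ | ⟨h1, h2⟩
    · exact hx i j hj.le h1
    · exact hx i (j + 1) hj h2
  have hF0 : ∀ i, F.neighborSet (v i 0) ⊆ {v i 1} := by
    intro i b hb
    rcases hFn i 0 (Nat.zero_le _) b hb with h | h
    · rw [h.2]; rfl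
    · omega
  have hFt : ∀ i, F.neighborSet (v i (t i)) ⊆ {v i (t i - 1)} := by
    intro i b hb
    rcases hFn i (t i) le_rfl b hb with h | h
    · omega
    · rw [h.2]; rfl
  have hF2 : ∀ x, (F.neighborSet x).ncard ≤ 2 := by
    intro x
    by_cases hx : ∃ i j, j ≤ t i ∧ v i j = x
    · obtain ⟨i, j, hj, rfl⟩ := hx
      have : F.neighborSet (v i j) ⊆ {v i (j + 1), v i (j - 1)} := by
        intro b hb
        rcases hFn i j hj b hb with h | h
        · rw [h.2]; exact Set.mem_insert _ _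
        · rw [h.2]; exact Set.mem_insert_of_mem _ rfl
      refine (Set.ncard_le_ncard this (Set.toFinite _)).trans ((Set.ncard_insert_le _ _).trans ?_)
      rw [Set.ncard_singleton]
    · push Not at hx
      rw [hFe x hx, Set.ncard_empty]; omega
  have hF1 : ∀ x, x ∉ C → (F.neighborSet x).ncard ≤ 1 := by
    intro x hxC
    by_cases hx : ∃ i j, j ≤ t i ∧ v i j = x
    · obtain ⟨i, j, hj, rfl⟩ := hx
      have hj0 : j = 0 := by
        by_contra hj0
        exact hxC (hin i j (by omega) hj)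
      subst hj0
      exact (Set.ncard_le_ncard (hF0 i) (Set.toFinite _)).trans (Set.ncard_singleton _).le
    · push Not at hx
      rw [hFe x hx, Set.ncard_empty]; omega
  have hEn : ∀ x, x ∉ W → E.neighborSet x = ∅ := by
    intro x hx
    rw [Set.eq_empty_iff_forall_notMem]
    intro b hb
    exact hx (hE.inW x b hb)
  have hsup : ∀ x, ((E ⊔ F).neighborSet x).ncard ≤
      (E.neighborSet x).ncard + (F.neighborSet x).ncard := by
    intro x
    have : (E ⊔ F).neighborSet x = E.neighborSet x ∪ F.neighborSet x := by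
      ext b
      simp [SimpleGraph.mem_neighborSet]
    rw [this]
    exact Set.ncard_union_le _ _
  set W' : Finset V := Finset.univ.filter fun x => x ∈ W ∨ ∃ i j, j ≤ t i ∧ v i j = x with hW'
  have hmem : ∀ x, x ∈ W' ↔ x ∈ W ∨ ∃ i j, j ≤ t i ∧ v i j = x := by
    intro x
    simp [hW']
  have h0W : ∀ i, v i 0 ∈ W := fun i => hE.nbW _ (h0 i)
  have hreach : ∀ i j, j ≤ t i → (E ⊔ F).Reachable (v i 0) (v i j) := by
    intro i j
    induction j with
    | zero => intro _; exact Reachable.refl _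
    | succ j ih =>
      intro hj
      refine (ih (by omega)).trans (SimpleGraph.Adj.reachable ?_)
      exact Or.inr ⟨i, j, by omega, Or.inl ⟨rfl, rfl⟩⟩
  have hW1 : ∀ x ∈ W', ∃ y ∈ W, (E ⊔ F).Reachable y x := by
    intro x hx
    rw [hmem] at hx
    rcases hx with hx | ⟨i, j, hj, rfl⟩
    · exact ⟨x, hx, Reachable.refl _⟩
    · exact ⟨v i 0, h0W i, hreach i j hj⟩
  refine ⟨W', E ⊔ F, ?_, ?_, ?_, ?_, ?_, ?_, ?_, ?_⟩
  · exact sup_le hE.le hFG
  · intro a b hab
    rw [hmem]
    rcases hab with hab | ⟨i, j, hj, h⟩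
    · exact Or.inl (hE.inW a b hab)
    · right
      rcases h with ⟨h1, h2⟩ | ⟨h1, h2⟩
      · exact ⟨i, j, hj.le, h1⟩
      · exact ⟨i, j + 1, hj, h2⟩
  · intro a ha b hb
    obtain ⟨a', ha', hra⟩ := hW1 a ha
    obtain ⟨b', hb', hrb⟩ := hW1 b hb
    exact hra.symm.trans (((hE.reach a' ha' b' hb').mono le_sup_left).trans hrb)
  · intro a ha haC'
    rw [hmem] at ha
    rcases ha with ha | ⟨i, j, hj, rfl⟩
    · exact hE.dis a ha (hsub haC')
    · have h0C' : v i 0 ∉ C' := fun hh => hE.dis _ (h0W i) (hsub hh)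
      have hex : ∃ j0, v i (j0 + 1) ∈ C' ∧ j0 + 1 ≤ t i := by
        rcases Nat.eq_zero_or_pos j with rfl | hj0
        · exact absurd haC' h0C'
        · exact ⟨j - 1, by rw [Nat.sub_add_cancel hj0]; exact haC', by omega⟩
      have hspec := Nat.find_spec hex
      set j0 := Nat.find hex with hj0def
      have hj0C : v i j0 ∉ C' := by
        rcases Nat.eq_zero_or_pos j0 with h1 | h1
        · rw [h1]; exact h0C'
        · intro hh
          refine Nat.find_min hex (m := j0 - 1) (by omega) ⟨?_, by omega⟩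
          rw [Nat.sub_add_cancel h1]; exact hh
      have hlt : j0 + 1 < t i := by
        rcases Nat.lt_or_ge (j0 + 1) (t i) with h1 | h1
        · exact h1
        · have h2 : j0 + 1 = t i := by omega
          rw [h2] at hspec
          exact absurd (Finset.mem_union_right U (hS2 i)) (hC'.dis _ hspec.1)
      have hnb : v i j0 ∈ nb G C' :=
        mem_nb.2 ⟨hj0C, v i (j0 + 1), hspec.1, (hadj i j0 (by omega)).symm⟩
      rcases Nat.eq_zero_or_pos j0 with h1 | h1
      · rw [h1] at hnb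
        have := (he i hnb).1
        omega
      · have h2 := hC'.nb_sub hnb
        rw [Finset.mem_union] at h2
        rcases h2 with h2 | h2
        · exact hC.dis _ (hin i j0 h1 (by omega)) h2
        · exact hS1 i j0 h1 (by omega) h2
  · intro x hx
    rw [hmem]
    rcases hC.nb_cases hC' hsub hx with h | h
    · exact Or.inl (hE.nbW x h.1)
    · obtain ⟨i, hi⟩ := hS3 x h.1
      exact Or.inr ⟨i, t i, le_rfl, hi⟩
  · intro x
    refine (hsup x).trans ?_
    by_cases hx : x ∈ W
    · have hxC := hE.dis x hx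
      by_cases hxn : x ∈ nb G C
      · have := hE.deg2 x hxn
        have := hF1 x hxC
        omega
      · have h1 : F.neighborSet x = ∅ := by
          apply hFe
          intro i j hj hh
          have hj0 : j = 0 := by
            by_contra hj0
            exact hxC (hh ▸ hin i j (by omega) hj)
          subst hj0
          exact hxn (hh ▸ h0 i)
        rw [h1, Set.ncard_empty]
        exact hE.deg3 x
    · rw [hEn x hx, Set.ncard_empty]
      have := hF2 x
      omega
  · intro x hx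
    refine (hsup x).trans ?_
    rcases hC.nb_cases hC' hsub hx with h | h
    · by_cases hex : ∃ i, v i 0 = x
      · obtain ⟨i, rfl⟩ := hex
        have h1 := (he i hx).2
        have h2 := hF1 _ h.2
        omega
      · have h1 : F.neighborSet x = ∅ := by
          apply hFe
          intro i j hj hh
          have hj0 : j = 0 := by
            by_contra hj0
            exact h.2 (hh ▸ hin i j (by omega) hj)
          subst hj0
          exact hex ⟨i, hh⟩
        rw [h1, Set.ncard_empty]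
        exact hE.deg2 x h.1
    · have hxW : x ∉ W := fun hh => hE.dis x hh h.2
      rw [hEn x hxW, Set.ncard_empty]
      have := hF2 x
      omega
  · obtain ⟨s, hs, hsn⟩ := hC.exists_mem hS hSne hC' hsub
    refine ⟨s, hsn, (hsup s).trans ?_⟩
    have hsW : s ∉ W := fun hh => hE.dis s hh (hS hs)
    rw [hEn s hsW, Set.ncard_empty]
    obtain ⟨i, rfl⟩ := hS3 s hs
    have := (Set.ncard_le_ncard (hFt i) (Set.toFinite _)).trans (Set.ncard_singleton _).le
    omega

end Vale.Agent.P235.H949
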