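import Vale.Agent.P235.H949.Mesh

/-!
# P235, GRID row G2: the separation step
-/

namespace Vale.Agent.P235.H949

open SimpleGraph Vale.Agent.P235.H134
open scoped Classical

variable {V : Type}

theorem exists_walk {G : SimpleGraph V} (P : Pth G) : ∃ w : G.Walk (P.f 0) (P.f P.len),
    ∀ x ∈ w.support, ∃ t ≤ P.len, P.f t = x := by
  have : ∀ m ≤ P.len, ∃ w : G.Walk (P.f 0) (P.f m), ∀ x ∈ w.support, ∃ t ≤ P.len, P.f t = x := by
    intro m
    induction m with
    | zero =>
      intro _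
      refine ⟨Walk.nil, ?_⟩
      intro x hx
      rw [Walk.support_nil, List.mem_singleton] at hx
      exact ⟨0, Nat.zero_le _, hx.symm⟩
    | succ m ih =>
      intro hm
      obtain ⟨w, hw⟩ := ih (by omega)
      refine ⟨w.concat (P.adj m (by omega)), ?_⟩
      intro x hx
      rw [Walk.support_concat, List.mem_append, List.mem_singleton] at hx
      rcases hx with hx | hx
      · exact hw x hx
      · exact ⟨m + 1, hm, hx.symm⟩
  exact this P.len le_rfl

/-- The graph of the external paths: edges with at least one end in `C`, all vertices in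
`C ∪ Y ∪ Z`. -/
def HH (G : SimpleGraph V) (C Y Z : Finset V) : SimpleGraph V where
  Adj a b := G.Adj a b ∧ (a ∈ C ∨ b ∈ C) ∧ (a ∈ C ∨ a ∈ Y ∨ a ∈ Z) ∧ (b ∈ C ∨ b ∈ Y ∨ b ∈ Z)
  symm := ⟨fun _ _ ⟨h1, h2, h3, h4⟩ => ⟨h1.symm, h2.symm, h4, h3⟩⟩
  loopless := ⟨fun _ h => h.1.ne rfl⟩

theorem HH_walk {G : SimpleGraph V} {C Y Z D : Finset V} (hD : D ⊆ C) {a b : V} (ha : a ∈ D)
    (h : Relation.ReflTransGen (fun x y => G.Adj x y ∧ y ∈ D) a b) :
    b ∈ D ∧ ∃ w : (HH G C Y Z).Walk a b, ∀ x ∈ w.support, x ∈ D := by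
  induction h with
  | refl =>
    refine ⟨ha, Walk.nil, ?_⟩
    intro x hx
    rw [Walk.support_nil, List.mem_singleton] at hx
    rw [hx]; exact ha
  | @tail x y hx hxy ih =>
    obtain ⟨hxD, w, hw⟩ := ih
    have hxy' : (HH G C Y Z).Adj x y :=
      ⟨hxy.1, Or.inl (hD hxD), Or.inl (hD hxD), Or.inl (hD hxy.2)⟩
    refine ⟨hxy.2, w.concat hxy', ?_⟩
    intro z hz
    rw [Walk.support_concat, List.mem_append, List.mem_singleton] at hz
    rcases hz with hz | hz
    · exact hw z hz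
    · rw [hz]; exact hxy.2

theorem HH_sep {G : SimpleGraph V} {C Y Z D : Finset V} {S : Set V}
    (hS : Separates (HH G C Y Z) (Y : Set V) (Z : Set V) S) (hD : D ⊆ C)
    (hconn : ∀ a ∈ D, ∀ b ∈ D, Relation.ReflTransGen (fun x y => G.Adj x y ∧ y ∈ D) a b)
    (hDS : ∀ a ∈ D, a ∉ S) {y z c d : V} (hy : y ∈ Y) (hyS : y ∉ S) (hz : z ∈ Z) (hzS : z ∉ S)
    (hc : c ∈ D) (hd : d ∈ D) (hcy : G.Adj c y) (hdz : G.Adj d z) : False := by
  obtain ⟨-, w, hw⟩ := HH_walk (Y := Y) (Z := Z) hD hc (hconn c hc d hd)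
  have h1 : (HH G C Y Z).Adj y c :=
    ⟨hcy.symm, Or.inr (hD hc), Or.inr (Or.inl hy), Or.inl (hD hc)⟩
  have h2 : (HH G C Y Z).Adj d z :=
    ⟨hdz, Or.inl (hD hd), Or.inl (hD hd), Or.inr (Or.inr hz)⟩
  obtain ⟨x, hx, hxS⟩ := hS y hy z hz (Walk.cons h1 (w.concat h2))
  rw [Walk.support_cons, List.mem_cons, Walk.support_concat, List.mem_append,
    List.mem_singleton] at hx
  rcases hx with rfl | hx | rfl
  · exact hyS hxS
  · exact hDS x (hw x hx) hxS
  · exact hzS hxS

variable [Fintype V] {G : SimpleGraph V}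

theorem step_sep (hM : MengerStmt) {U C : Finset V} (hC : IsComp G U C) {k : ℕ} {Y Z : Finset V}
    (hY : Y ⊆ nb G C) (hZ : Z ⊆ nb G C) (hYZ : Disjoint Y Z) (hcard : Y.card = Z.card)
    (hk : Y.card ≤ k)
    (hno : ¬ ∃ P : Fin Y.card → Pth G, IsLinkage (Y : Set V) (Z : Set V) P ∧
      ∀ a t, 0 < t → t < (P a).len → (P a).f t ∈ (C : Set V)) :
    ∃ S' : Finset V, S' ⊆ C ∧ S'.Nonempty ∧ S'.card ≤ k ∧
      ∀ C' W E, IsComp G (U ∪ S') C' → C' ⊆ C → PreData G C W E →
        (nb G C').card ≤ (nb G C).card ∧ ∃ W' E', PreData G C' W' E' := by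
  set H := HH G C Y Z with hH
  have hYC : ∀ y ∈ Y, y ∉ C := fun y hy => (mem_nb.1 (hY hy)).1
  have hZC : ∀ z ∈ Z, z ∉ C := fun z hz => (mem_nb.1 (hZ hz)).1
  -- inner vertices of a path of `H` joining `Y` and `Z`
  have hinner : ∀ P : Pth H, P.Joins (Y : Set V) (Z : Set V) → ∀ t, 0 < t → t < P.len →
      P.f t ∈ C := by
    intro P hP t h0 h1
    obtain ⟨-, -, hP3, hP4⟩ := hP
    have := (P.adj t h1).2.2.1
    rcases this with h | h | h
    · exact h
    · have := hP3 t h1.le h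
      omega
    · have := hP4 t h1.le h
      omega
  have hsep0 : ∃ S : Finset V, S.card < Y.card ∧ Separates H (Y : Set V) (Z : Set V) S := by
    rcases hM V H (Y : Set V) (Z : Set V) Y.card with ⟨P, hP⟩ | h
    · exfalso
      apply hno
      refine ⟨fun i => ⟨(P i).len, (P i).f, fun j hj => ((P i).adj j hj).1, (P i).inj⟩,
        ⟨fun i => hP.1 i, fun i j hij => hP.2 i j hij⟩, ?_⟩
      intro a t h0 h1
      exact hinner (P a) (hP.1 a) t h0 h1
    · exact h
  have hex : ∃ n, ∃ S : Finset V, S.card = n ∧ Separates H (Y : Set V) (Z : Set V) S := by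
    obtain ⟨S, -, hS⟩ := hsep0
    exact ⟨_, S, rfl, hS⟩
  obtain ⟨S, hSn, hS⟩ := Nat.find_spec hex
  set n := Nat.find hex with hn
  have hnY : n < Y.card := by
    obtain ⟨S0, h1, h2⟩ := hsep0
    exact lt_of_le_of_lt (Nat.find_min' hex ⟨S0, rfl, h2⟩) h1
  obtain ⟨P, hP⟩ : Linked H (Y : Set V) (Z : Set V) n := by
    rcases hM V H (Y : Set V) (Z : Set V) n with h | ⟨S1, h1, h2⟩
    · exact h
    · exact absurd ⟨S1, rfl, h2⟩ (Nat.find_min hex h1)
  have hτ : ∀ i : Fin n, ∃ t ≤ (P i).len, (P i).f t ∈ S := by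
    intro i
    obtain ⟨w, hw⟩ := exists_walk (P i)
    obtain ⟨h1, h2, -, -⟩ := hP.1 i
    obtain ⟨x, hx, hxS⟩ := hS _ h1 _ h2 w
    obtain ⟨t, ht, rfl⟩ := hw x hx
    exact ⟨t, ht, hxS⟩
  choose τ hτ1 hτ2 using hτ
  set σ : Fin n → V := fun i => (P i).f (τ i) with hσ
  have hσinj : Function.Injective σ := by
    intro i j hij
    by_contra hne
    have := Set.disjoint_left.1 (hP.2 i j hne) ⟨τ i, hτ1 i, rfl⟩
    exact this ⟨τ j, hτ1 j, hij.symm⟩
  have hσS : Finset.univ.image σ = S := by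
    apply Finset.eq_of_subset_of_card_le
    · intro x hx
      rw [Finset.mem_image] at hx
      obtain ⟨i, -, rfl⟩ := hx
      exact hτ2 i
    · rw [Finset.card_image_of_injective _ hσinj, Finset.card_univ, Fintype.card_fin, hSn]
  have hSσ : ∀ s ∈ S, ∃ i, σ i = s := by
    intro s hs
    rw [← hσS, Finset.mem_image] at hs
    obtain ⟨i, -, h⟩ := hs
    exact ⟨i, h⟩
  have huniq : ∀ i, ∀ t ≤ (P i).len, (P i).f t ∈ S → t = τ i := by
    intro i t ht hts
    obtain ⟨j, hj⟩ := hSσ _ hts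
    by_cases hij : i = j
    · subst hij
      exact ((P i).inj (τ i) (hτ1 i) t ht hj).symm
    · exfalso
      exact Set.disjoint_left.1 (hP.2 i j hij) ⟨t, ht, rfl⟩ ⟨τ j, hτ1 j, hj⟩
  set S' : Finset V := S.filter (· ∈ C) with hS'
  have hS'S : ∀ s ∈ S', s ∈ S := fun s hs => (Finset.mem_filter.1 hs).1
  have hS'C : ∀ s ∈ S', s ∈ C := fun s hs => (Finset.mem_filter.1 hs).2
  have hYS : ∃ y ∈ Y, y ∉ S := by
    by_contra hcon
    push Not at hcon
    have := Finset.card_le_card (show Y ⊆ S from hcon)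
    omega
  have hZS : ∃ z ∈ Z, z ∉ S := by
    by_contra hcon
    push Not at hcon
    have := Finset.card_le_card (show Z ⊆ S from hcon)
    omega
  have hne : S'.Nonempty := by
    by_contra hcon
    rw [Finset.not_nonempty_iff_eq_empty] at hcon
    obtain ⟨y, hy, hyS⟩ := hYS
    obtain ⟨z, hz, hzS⟩ := hZS
    obtain ⟨-, c, hc, hcy⟩ := mem_nb.1 (hY hy)
    obtain ⟨-, d, hd, hdz⟩ := mem_nb.1 (hZ hz)
    refine HH_sep (S := (S : Set V)) hS (Finset.Subset.refl C) hC.conn ?_ hy hyS hz hzS hc hd hcy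
      hdz
    intro a ha haS
    have : a ∈ S' := Finset.mem_filter.2 ⟨haS, ha⟩
    rw [hcon] at this
    exact absurd this (Finset.notMem_empty _)
  refine ⟨S', fun s hs => hS'C s hs, hne, ?_, ?_⟩
  · have : S'.card ≤ S.card := Finset.card_le_card (fun s hs => hS'S s hs)
    omega
  intro C' W E hC' hsub hE
  have hC'S : ∀ a ∈ C', a ∉ S := fun a ha haS =>
    hC'.dis a ha (Finset.mem_union_right _ (Finset.mem_filter.2 ⟨haS, hsub ha⟩))
  -- no neighbours on one side
  have hside : (∀ y ∈ Y, y ∉ S → y ∉ nb G C') ∨ (∀ z ∈ Z, z ∉ S → z ∉ nb G C') := by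
    by_contra hcon
    push Not at hcon
    obtain ⟨⟨y, hy, hyS, hyn⟩, ⟨z, hz, hzS, hzn⟩⟩ := hcon
    obtain ⟨-, c, hc, hcy⟩ := mem_nb.1 hyn
    obtain ⟨-, d, hd, hdz⟩ := mem_nb.1 hzn
    exact HH_sep (S := (S : Set V)) hS hsub hC'.conn (fun a ha => hC'S a ha) hy hyS hz hzS hc hd
      hcy hdz
  -- cardinality
  have hcount : ∀ Q : Finset V, Q ⊆ nb G C → Q.card = Y.card → (∀ y ∈ Q, y ∉ C) →
      (∀ y ∈ Q, y ∉ S → y ∉ nb G C') → (nb G C').card ≤ (nb G C).card := by
    intro Q hQ hQc hQC hQn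
    have h1 : nb G C' ⊆ (nb G C \ (Q \ S)) ∪ S' := by
      intro x hx
      rw [Finset.mem_union, Finset.mem_sdiff, Finset.mem_sdiff]
      rcases hC.nb_cases hC' hsub hx with h | h
      · left
        refine ⟨h.1, ?_⟩
        rintro ⟨h2, h3⟩
        exact hQn x h2 h3 hx
      · exact Or.inr h.1
    have h2 := Finset.card_le_card h1
    have h3 := Finset.card_union_le (nb G C \ (Q \ S)) S'
    have h4 : (nb G C \ (Q \ S)).card = (nb G C).card - (Q \ S).card :=
      Finset.card_sdiff_of_subset (Finset.sdiff_subset.trans hQ)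
    have h5 : (Q \ S).card ≤ (nb G C).card := Finset.card_le_card (Finset.sdiff_subset.trans hQ)
    have h6 : (Q ∩ S).card + (Q \ S).card = Q.card := Finset.card_inter_add_card_sdiff Q S
    have h7 : S'.card + (Q ∩ S).card ≤ S.card := by
      rw [← Finset.card_union_of_disjoint]
      · apply Finset.card_le_card
        intro x hx
        rw [Finset.mem_union, Finset.mem_inter] at hx
        rcases hx with hx | hx
        · exact hS'S x hx
        · exact hx.2
      · rw [Finset.disjoint_left]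
        intro x hx hx'
        rw [Finset.mem_inter] at hx'
        exact hQC x hx'.1 (hS'C x hx)
    omega
  rcases hside with hA | hB
  · refine ⟨hcount Y hY rfl hYC hA, ?_⟩
    have hf0 : ∀ i : {i : Fin n // σ i ∈ C}, (P i.1).f 0 ∈ Y := fun i => (hP.1 i.1).1
    have hτ0 : ∀ i : {i : Fin n // σ i ∈ C}, 0 < τ i.1 := by
      intro i
      by_contra hcon
      have h1 : τ i.1 = 0 := by omega
      have h2 : (P i.1).f (τ i.1) ∈ C := i.2
      rw [h1] at h2
      exact hYC _ (hf0 i) h2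
    refine PreData.attach (ι := {i : Fin n // σ i ∈ C}) hC hE (fun s hs => hS'C s hs) hne hC' hsub
      (fun i j => (P i.1).f j) (fun i => τ i.1) ?_ ?_ ?_ ?_ ?_ hτ0 ?_ ?_ ?_
    · intro i
      exact hY (hf0 i)
    · intro i j hj0 hj
      rcases Nat.lt_or_ge j (τ i.1) with h1 | h1
      · exact hinner (P i.1) (hP.1 i.1) j hj0 (lt_of_lt_of_le h1 (hτ1 i.1))
      · have : j = τ i.1 := by omega
        rw [this]
        exact i.2
    · intro i j hj
      exact ((P i.1).adj j (lt_of_lt_of_le hj (hτ1 i.1))).1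
    · intro i j i' j' hj hj' h
      have hj1 : j ≤ (P i.1).len := hj.trans (hτ1 i.1)
      have hj2 : j' ≤ (P i'.1).len := hj'.trans (hτ1 i'.1)
      by_cases hii : i.1 = i'.1
      · have hi : i = i' := Subtype.ext hii
        subst hi
        exact ⟨rfl, (P i.1).inj j hj1 j' hj2 h⟩
      · exfalso
        exact Set.disjoint_left.1 (hP.2 i.1 i'.1 hii) ⟨j, hj1, rfl⟩ ⟨j', hj2, h.symm⟩
    · intro i j hj0 hj hh
      have := huniq i.1 j (hj.le.trans (hτ1 i.1)) (hS'S _ hh)
      omega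
    · intro i
      exact Finset.mem_filter.2 ⟨hτ2 i.1, i.2⟩
    · intro s hs
      obtain ⟨i, hi⟩ := hSσ s (hS'S s hs)
      exact ⟨⟨i, by rw [hi]; exact hS'C s hs⟩, hi⟩
    · intro i hh
      exfalso
      refine hA _ (hf0 i) ?_ hh
      intro hhS
      have := huniq i.1 0 (Nat.zero_le _) hhS
      have := hτ0 i
      omega
  · refine ⟨hcount Z hZ hcard.symm hZC hB, ?_⟩
    have hfl : ∀ i : {i : Fin n // σ i ∈ C}, (P i.1).f (P i.1).len ∈ Z := fun i => (hP.1 i.1).2.1
    have hτl : ∀ i : {i : Fin n // σ i ∈ C}, τ i.1 < (P i.1).len := by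
      intro i
      rcases Nat.lt_or_ge (τ i.1) (P i.1).len with h | h
      · exact h
      · exfalso
        have h1 : τ i.1 = (P i.1).len := le_antisymm (hτ1 i.1) h
        have h2 : (P i.1).f (τ i.1) ∈ C := i.2
        rw [h1] at h2
        exact hZC _ (hfl i) h2
    refine PreData.attach (ι := {i : Fin n // σ i ∈ C}) hC hE (fun s hs => hS'C s hs) hne hC' hsub
      (fun i j => (P i.1).f ((P i.1).len - j)) (fun i => (P i.1).len - τ i.1)
      ?_ ?_ ?_ ?_ ?_ ?_ ?_ ?_ ?_
    · intro i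
      exact hZ (hfl i)
    · intro i j hj0 hj
      have hl := hτl i
      rcases Nat.lt_or_ge j ((P i.1).len - τ i.1) with h1 | h1
      · exact hinner (P i.1) (hP.1 i.1) _ (by omega) (by omega)
      · have : (P i.1).len - j = τ i.1 := by omega
        rw [this]
        exact i.2
    · intro i j hj
      have hl := hτl i
      have h1 := ((P i.1).adj ((P i.1).len - (j + 1)) (by omega)).1
      have h2 : (P i.1).len - (j + 1) + 1 = (P i.1).len - j := by omega
      rw [h2] at h1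
      exact h1.symm
    · intro i j i' j' hj hj' h
      have hl := hτl i
      have hl' := hτl i'
      by_cases hii : i.1 = i'.1
      · have hi : i = i' := Subtype.ext hii
        subst hi
        have := (P i.1).inj _ (Nat.sub_le _ _) _ (Nat.sub_le _ _) h
        exact ⟨rfl, by omega⟩
      · exfalso
        exact Set.disjoint_left.1 (hP.2 i.1 i'.1 hii) ⟨_, Nat.sub_le _ _, rfl⟩
          ⟨_, Nat.sub_le _ _, h.symm⟩
    · intro i j hj0 hj hh
      have := huniq i.1 _ (Nat.sub_le _ _) (hS'S _ hh)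
      omega
    · intro i
      have := hτl i
      omega
    · intro i
      have hl := hτl i
      have : (P i.1).len - ((P i.1).len - τ i.1) = τ i.1 := by omega
      show (P i.1).f ((P i.1).len - ((P i.1).len - τ i.1)) ∈ S'
      rw [this]
      exact Finset.mem_filter.2 ⟨hτ2 i.1, i.2⟩
    · intro s hs
      obtain ⟨i, hi⟩ := hSσ s (hS'S s hs)
      have hiC : σ i ∈ C := by rw [hi]; exact hS'C s hs
      refine ⟨⟨i, hiC⟩, ?_⟩
      have hl := hτl ⟨i, hiC⟩
      have : (P i).len - ((P i).len - τ i) = τ i := by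
        have := hτ1 i
        omega
      show (P i).f ((P i).len - ((P i).len - τ i)) = s
      rw [this]
      exact hi
    · intro i hh
      exfalso
      have hl := hτl i
      refine hB _ (hfl i) ?_ hh
      intro hhS
      have := huniq i.1 _ le_rfl hhS
      omega

end Vale.Agent.P235.H949
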