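import Vale.Agent.P235.H949.Mesh2

/-!
# P235, GRID row G2: the mesh lemma
-/

namespace Vale.Agent.P235.H949

open SimpleGraph Vale.Agent.P235.H134
open scoped Classical

variable {V : Type} [Fintype V] {G : SimpleGraph V}

/-- The induction hypothesis on `U`. -/
def Good (G : SimpleGraph V) (w h : ℕ) (U : Finset V) : Prop :=
  ∃ (n : ℕ) (B : ℕ → Finset V) (par : ℕ → ℕ), RDec G (U : Set V) w n B par ∧
    ∀ C, IsComp G U C → (∃ i ≤ n, ∀ x ∈ nb G C, x ∈ B i) ∧ (nb G C).card ≤ h ∧
      ∃ W E, PreData G C W E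

theorem Good.step {w h : ℕ} {U C S' : Finset V} (hU : Good G w h U) (hC : IsComp G U C)
    (hS : S' ⊆ C) (hcard : h + S'.card ≤ w + 1)
    (hpre : ∀ C', IsComp G (U ∪ S') C' → C' ⊆ C →
      (nb G C').card ≤ h ∧ ∃ W E, PreData G C' W E) : Good G w h (U ∪ S') := by
  obtain ⟨n, B, par, hR, hcomp⟩ := hU
  obtain ⟨⟨i0, hi0, hB⟩, hle, -⟩ := hcomp C hC
  have hUX : U ∪ (nb G C ∪ S') = U ∪ S' := by
    ext x
    simp only [Finset.mem_union]
    constructor
    · rintro (h1 | h1 | h1)
      · exact Or.inl h1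
      · exact Or.inl (hC.nb_sub h1)
      · exact Or.inr h1
    · rintro (h1 | h1)
      · exact Or.inl h1
      · exact Or.inr (Or.inr h1)
  have hap := hR.append hi0 (X' := nb G C ∪ S') ?_ ?_ ?_
  · rw [hUX] at hap
    refine ⟨n + 1, _, _, hap, ?_⟩
    intro C' hC'
    rcases hC.cases hS hC' with h1 | h1
    · refine ⟨⟨n + 1, le_rfl, ?_⟩, hpre C' hC' h1⟩
      intro x hx
      rw [Function.update_self, Finset.mem_union]
      rcases hC.nb_cases hC' h1 hx with h2 | h2
      · exact Or.inl h2.1
      · exact Or.inr h2.1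
    · obtain ⟨⟨i, hi, hBi⟩, h2⟩ := hcomp C' h1
      refine ⟨⟨i, by omega, ?_⟩, h2⟩
      intro x hx
      rw [Function.update_of_ne (by omega)]
      exact hBi x hx
  · intro v hv hvU
    rw [Finset.mem_union] at hv
    rcases hv with hv | hv
    · exact hB v hv
    · exact absurd hvU (hC.dis v (hS hv))
  · have := Finset.card_union_le (nb G C) S'
    omega
  · intro u hu v hv hvU huv
    rw [Finset.mem_union] at hv ⊢
    rcases hv with hv | hv
    · exact absurd (hC.nb_sub hv) hvU
    · left
      exact mem_nb.2 ⟨fun hh => hC.dis u hh hu, v, hS hv, huv.symm⟩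

/-- There is a component of `G - U` if `U` is not everything. -/
theorem exists_comp {U : Finset V} {v : V} (hv : v ∉ U) : ∃ C, IsComp G U C := by
  set R : V → V → Prop := fun x y => G.Adj x y ∧ x ∉ U ∧ y ∉ U with hR
  have hsymm : ∀ x y, R x y → R y x := fun x y h => ⟨h.1.symm, h.2.2, h.2.1⟩
  have hrev : ∀ x y, Relation.ReflTransGen R x y → Relation.ReflTransGen R y x := by
    intro x y h
    induction h with
    | refl => exact Relation.ReflTransGen.refl
    | tail _ h2 ih => exact ih.head (hsymm _ _ h2)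
  set C : Finset V := Finset.univ.filter fun x => Relation.ReflTransGen R v x with hC
  have hmem : ∀ x, x ∈ C ↔ Relation.ReflTransGen R v x := by
    intro x; simp [hC]
  have hout : ∀ x, Relation.ReflTransGen R v x → x ∉ U := by
    intro x hx
    induction hx with
    | refl => exact hv
    | tail _ h2 _ => exact h2.2.2
  refine ⟨C, ⟨v, (hmem v).2 Relation.ReflTransGen.refl⟩, ?_, ?_, ?_⟩
  · intro a ha
    exact hout a ((hmem a).1 ha)
  · intro a ha b hb
    have hab : Relation.ReflTransGen R a b := by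
      have h1 : Relation.ReflTransGen R a v :=
        hrev _ _ ((hmem a).1 ha)
      exact h1.trans ((hmem b).1 hb)
    induction hab with
    | refl => exact Relation.ReflTransGen.refl
    | @tail x y hx hxy ih =>
      have hxC : x ∈ C := (hmem x).2 (((hmem a).1 ha).trans hx)
      exact (ih hxC).tail ⟨hxy.1, hb⟩
  · intro a ha b hab
    by_cases hbU : b ∈ U
    · exact Or.inr hbU
    · left
      rw [hmem] at ha ⊢
      exact ha.tail ⟨hab, hout a ha, hbU⟩

theorem exists_nb (hG : G.Connected) {C : Finset V} (hne : C.Nonempty) {v : V} (hv : v ∉ C) :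
    ∃ x, x ∈ nb G C := by
  obtain ⟨a, ha⟩ := hne
  obtain ⟨p⟩ := hG.preconnected a v
  have hr : Relation.ReflTransGen G.Adj a v := by
    rw [← SimpleGraph.reachable_iff_reflTransGen]
    exact ⟨p⟩
  obtain ⟨x, y, hxy, hx, hy⟩ := crossing (P := fun x => x ∈ C) hr ha hv
  exact ⟨y, mem_nb.2 ⟨hy, x, hx, hxy⟩⟩

theorem good_start (hG : G.Connected) (v0 : V) {w h : ℕ} (hh : 1 ≤ h) :
    Good G w h {v0} := by
  refine ⟨0, fun _ => {v0}, fun _ => 0, ⟨?_, ?_, ?_, ?_, ?_, ?_⟩, ?_⟩
  · intro i _ v hv
    rw [Finset.mem_singleton] at hv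
    simp [hv]
  · intro v hv
    exact ⟨0, le_rfl, by simpa using hv⟩
  · intro u hu v hv huv
    exfalso
    simp only [Finset.coe_singleton, Set.mem_singleton_iff] at hu hv
    subst hu; subst hv
    exact huv.ne rfl
  · intro i h0 hi; omega
  · intro i h0 hi; omega
  · intro i _
    rw [Finset.card_singleton]; omega
  · intro C hC
    have hsub : nb G C ⊆ {v0} := fun x hx => hC.nb_sub hx
    have hv0 : v0 ∉ C := fun hv => hC.dis v0 hv (Finset.mem_singleton_self _)
    obtain ⟨x, hx⟩ := exists_nb hG hC.ne hv0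
    have hxv := Finset.mem_singleton.1 (hsub hx)
    subst hxv
    have hbot : ∀ v, ((⊥ : SimpleGraph V).neighborSet v).ncard = 0 := by
      intro v
      have : (⊥ : SimpleGraph V).neighborSet v = ∅ := by
        ext y; simp [SimpleGraph.mem_neighborSet]
      rw [this, Set.ncard_empty]
    refine ⟨⟨0, le_rfl, fun y hy => hsub hy⟩, ?_, {x}, ⊥, ?_, ?_, ?_, ?_, ?_, ?_, ?_, ?_⟩
    · have := Finset.card_le_card hsub
      rw [Finset.card_singleton] at this
      omega
    · exact bot_le
    · intro a b hab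
      exact absurd hab (by simp)
    · intro a ha b hb
      rw [Finset.mem_singleton] at ha hb
      subst ha; subst hb
      exact Reachable.refl _
    · intro a ha
      rw [Finset.mem_singleton] at ha
      subst ha
      exact hv0
    · intro y hy
      exact hsub hy
    · intro v; rw [hbot]; omega
    · intro v _; rw [hbot]; omega
    · exact ⟨x, hx, by rw [hbot]; omega⟩

theorem connected_induce {E : SimpleGraph V} {W : Finset V} (hne : W.Nonempty)
    (inW : ∀ a b, E.Adj a b → a ∈ W) (reach : ∀ a ∈ W, ∀ b ∈ W, E.Reachable a b) :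
    (E.induce (W : Set V)).Connected := by
  have hw : ∀ a b (p : E.Walk a b) (ha : a ∈ (W : Set V)), ∃ hb : b ∈ (W : Set V),
      (E.induce (W : Set V)).Reachable ⟨a, ha⟩ ⟨b, hb⟩ := by
    intro a b p
    induction p with
    | nil => intro ha; exact ⟨ha, Reachable.refl _⟩
    | @cons u v w huv p ih =>
      intro hu
      have hv : v ∈ (W : Set V) := inW v u huv.symm
      obtain ⟨hb, hr⟩ := ih hv
      refine ⟨hb, Reachable.trans (SimpleGraph.Adj.reachable ?_) hr⟩
      exact huv
  have : Nonempty (W : Set V) := by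
    obtain ⟨a, ha⟩ := hne
    exact ⟨⟨a, ha⟩⟩
  refine ⟨?_⟩
  rintro ⟨a, ha⟩ ⟨b, hb⟩
  obtain ⟨p⟩ := reach a ha b hb
  obtain ⟨hb', hr⟩ := hw a b p ha
  exact hr

theorem main (hM : MengerStmt) (hG : G.Connected) {k h : ℕ} (hk : 1 ≤ k) (hh : 1 ≤ h)
    (hno : ¬ TreeMesh G k h) : ∀ m (U : Finset V), Uᶜ.card = m → Good G (h + k) h U →
    ∃ n B par, RDec G (Set.univ : Set V) (h + k) n B par := by
  intro m
  induction m using Nat.strong_induction_on with
  | _ m ih =>
  intro U hUm hU
  by_cases hall : ∀ v, v ∈ U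
  · obtain ⟨n, B, par, hR, -⟩ := hU
    refine ⟨n, B, par, ?_⟩
    have : (U : Set V) = Set.univ := by
      ext v; simp [hall v]
    rwa [this] at hR
  push Not at hall
  obtain ⟨v, hv⟩ := hall
  obtain ⟨C, hC⟩ := exists_comp (G := G) hv
  have hU' := hU
  obtain ⟨n, B, par, hR, hcomp⟩ := hU'
  obtain ⟨-, hle, W, E, hE⟩ := hcomp C hC
  -- it suffices to find `S'`
  suffices hS : ∃ S' : Finset V, S' ⊆ C ∧ S'.Nonempty ∧ S'.card ≤ k ∧
      ∀ C', IsComp G (U ∪ S') C' → C' ⊆ C → (nb G C').card ≤ h ∧ ∃ W E, PreData G C' W E by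
    obtain ⟨S', h1, h2, h3, h4⟩ := hS
    have hgood := hU.step hC h1 (by omega) h4
    refine ih (U ∪ S')ᶜ.card ?_ (U ∪ S') rfl hgood
    rw [← hUm]
    apply Finset.card_lt_card
    rw [Finset.ssubset_iff_of_subset]
    · obtain ⟨s, hs⟩ := h2
      refine ⟨s, ?_, ?_⟩
      · rw [Finset.mem_compl]
        exact hC.dis s (h1 hs)
      · rw [Finset.mem_compl]
        push Not
        exact Finset.mem_union_right _ hs
    · intro x hx
      rw [Finset.mem_compl] at hx ⊢
      exact fun hh => hx (Finset.mem_union_left _ hh)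
  rcases Nat.lt_or_ge (nb G C).card h with hlt | hge
  · -- add one vertex
    obtain ⟨u, hu, hud⟩ := hE.deg1
    have hu' := mem_nb.1 hu
    obtain ⟨c, hc, hcu⟩ := hu'.2
    refine ⟨{c}, by simpa using hc, Finset.singleton_nonempty _, by simpa using hk, ?_⟩
    intro C' hC' hsub
    constructor
    · have h1 : nb G C' ⊆ nb G C ∪ {c} := by
        intro x hx
        rw [Finset.mem_union]
        rcases hC.nb_cases hC' hsub hx with h2 | h2
        · exact Or.inl h2.1
        · exact Or.inr h2.1
      have h2 := Finset.card_le_card h1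
      have h3 := Finset.card_union_le (nb G C) {c}
      rw [Finset.card_singleton] at h3
      omega
    · have huc : u ≠ c := fun e => hu'.1 (e ▸ hc)
      refine PreData.attach (ι := Unit) (S' := {c}) hC hE (by simpa using hc)
        (Finset.singleton_nonempty _) hC' hsub
        (fun _ j => if j = 0 then u else c) (fun _ => 1) ?_ ?_ ?_ ?_ ?_ ?_ ?_ ?_ ?_
      · intro _; simpa using hu
      · intro _ j hj0 _
        rw [if_neg (by omega)]
        exact hc
      · intro _ j hj
        obtain rfl : j = 0 := by omega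
        simpa using hcu.symm
      · intro i j i' j' hj hj' he
        refine ⟨rfl, ?_⟩
        have h1 : j = 0 ∨ j = 1 := by omega
        have h2 : j' = 0 ∨ j' = 1 := by omega
        rcases h1 with rfl | rfl <;> rcases h2 with rfl | rfl
        · rfl
        · simp at he
          exact absurd he huc
        · simp at he
          exact absurd he.symm huc
        · rfl
      · intro _ j h0 h1; omega
      · intro _; omega
      · intro _; simp
      · intro s hs
        rw [Finset.mem_singleton] at hs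
        exact ⟨(), by simp [hs]⟩
      · intro _ _
        exact ⟨rfl, by simpa using hud⟩
  · -- the separation step
    have heq : (nb G C).card = h := le_antisymm hle hge
    by_cases hmesh : ∀ Y Z : Finset V, Y ⊆ nb G C → Z ⊆ nb G C → Disjoint Y Z →
        Y.card = Z.card → Y.card ≤ k →
        ∃ P : Fin Y.card → Pth G, IsLinkage (Y : Set V) (Z : Set V) P ∧
          ∀ a t, 0 < t → t < (P a).len → (P a).f t ∈ (C : Set V)
    · exfalso
      apply hno
      refine ⟨(C : Set V), (W : Set V), E, nb G C, hE.le, ?_, ?_, hE.deg3, ?_, heq, hmesh⟩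
      · rw [Set.disjoint_left]
        intro a ha
        exact hE.dis a ha
      · apply connected_induce ?_ hE.inW hE.reach
        obtain ⟨u, hu, -⟩ := hE.deg1
        exact ⟨u, hE.nbW u hu⟩
      · intro x hx
        exact hE.nbW x hx
    · push Not at hmesh
      obtain ⟨Y, Z, hY, hZ, hYZ, hcard, hYk, hP⟩ := hmesh
      obtain ⟨S', h1, h2, h3, h4⟩ := step_sep hM hC hY hZ hYZ hcard hYk (by
        rintro ⟨P, hP1, hP2⟩
        obtain ⟨a, t, ha0, hat, hac⟩ := hP P hP1
        exact hac (hP2 a t ha0 hat))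
      refine ⟨S', h1, h2, h3, ?_⟩
      intro C' hC' hsub
      obtain ⟨h5, h6⟩ := h4 C' W E hC' hsub hE
      exact ⟨h5.trans hle, h6⟩

theorem exists_rdec (hM : MengerStmt) (hG : G.Connected) {k h : ℕ} (hk : 1 ≤ k) (hh : 1 ≤ h)
    (hno : ¬ TreeMesh G k h) : ∃ n B par, RDec G (Set.univ : Set V) (h + k) n B par := by
  obtain ⟨v0⟩ := hG.nonempty
  exact main hM hG hk hh hno _ {v0} rfl (good_start hG v0 hh)

end Vale.Agent.P235.H949
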