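import Vale.Agent.P235.H134.Grid.Defs

/-!
# P235, GRID row G2: rooted tree decompositions as sequences of bags
-/

namespace Vale.Agent.P235.H949

open SimpleGraph

/-- Bags `B 0, …, B n` with parents `par i < i` form a tree decomposition of `G[U]` of width at
most `w`: the vertices which `B i` shares with an earlier bag lie in `B (par i)`. -/
structure RDec {V : Type} (G : SimpleGraph V) (U : Set V) (w n : ℕ) (B : ℕ → Finset V)
    (par : ℕ → ℕ) : Prop where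
  sub : ∀ i ≤ n, ∀ v ∈ B i, v ∈ U
  cover : ∀ v ∈ U, ∃ i ≤ n, v ∈ B i
  edge : ∀ u ∈ U, ∀ v ∈ U, G.Adj u v → ∃ i ≤ n, u ∈ B i ∧ v ∈ B i
  par_lt : ∀ i, 0 < i → i ≤ n → par i < i
  rip : ∀ i, 0 < i → i ≤ n → ∀ j < i, ∀ v, v ∈ B i → v ∈ B j → v ∈ B (par i)
  card : ∀ i ≤ n, (B i).card ≤ w + 1

end Vale.Agent.P235.H949
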