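import Mathlib

/-!
# P235, GRID row G4: good tuples in trees and connected graphs

A tuple `x : Fin r → V` of distinct vertices of a tree is good if for every `j` the path from
`x j` to `x (j+1)` contains no other vertex of the tuple.  Every tree with more than `(r-1)^2`
marked vertices contains a good `r`-tuple of marked vertices.
-/

namespace Vale.Agent.P235.H949

open SimpleGraph

section Tree

variable {V : Type*} [DecidableEq V] {T : SimpleGraph V}

/-- The path of the tree from the root. -/
noncomputable def rp (hT : T.IsTree) (ρ v : V) : T.Walk ρ v :=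
  (hT.existsUnique_path ρ v).exists.choose

theorem rp_isPath (hT : T.IsTree) (ρ v : V) : (rp hT ρ v).IsPath :=
  (hT.existsUnique_path ρ v).exists.choose_spec

theorem path_eq (hT : T.IsTree) {u v : V} {p q : T.Walk u v} (hp : p.IsPath) (hq : q.IsPath) :
    p = q :=
  (hT.existsUnique_path u v).unique hp hq

/-- Ancestor relation. -/
def Anc (hT : T.IsTree) (ρ u v : V) : Prop := u ∈ (rp hT ρ v).support

theorem anc_refl (hT : T.IsTree) (ρ v : V) : Anc hT ρ v v := Walk.end_mem_support _

theorem rp_takeUntil (hT : T.IsTree) {ρ u v : V} (h : Anc hT ρ u v) :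
    (rp hT ρ v).takeUntil u h = rp hT ρ u :=
  path_eq hT ((rp_isPath hT ρ v).takeUntil h) (rp_isPath hT ρ u)

theorem anc_trans (hT : T.IsTree) {ρ u v w : V} (h : Anc hT ρ u v) (h' : Anc hT ρ v w) :
    Anc hT ρ u w := by
  have := rp_takeUntil hT h'
  unfold Anc at h ⊢
  rw [← this] at h
  exact Walk.support_takeUntil_subset _ _ h

theorem anc_antisymm (hT : T.IsTree) {ρ u v : V} (h : Anc hT ρ u v) (h' : Anc hT ρ v u) :
    u = v := by
  by_contra hne
  have h1 : ((rp hT ρ v).takeUntil u h).length < (rp hT ρ v).length :=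
    Walk.length_takeUntil_lt h (by exact fun e => hne e)
  have h2 : ((rp hT ρ u).takeUntil v h').length < (rp hT ρ u).length :=
    Walk.length_takeUntil_lt h' (by exact fun e => hne e.symm)
  rw [rp_takeUntil] at h1 h2
  omega

theorem anc_of_drop (hT : T.IsTree) {ρ z v u : V} (h : Anc hT ρ z v)
    (hu : u ∈ ((rp hT ρ v).dropUntil z h).support) : Anc hT ρ z u ∧ Anc hT ρ u v := by
  refine ⟨?_, Walk.support_dropUntil_subset _ _ hu⟩
  set p := rp hT ρ v with hp
  set q := p.dropUntil z h with hq
  have e1 : (p.takeUntil z h).append q = p := Walk.take_spec _ _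
  have e2 : (q.takeUntil u hu).append (q.dropUntil u hu) = q := Walk.take_spec _ _
  have hP : (((p.takeUntil z h).append (q.takeUntil u hu)).append (q.dropUntil u hu)).IsPath := by
    rw [← Walk.append_assoc, e2, e1]
    exact rp_isPath hT ρ v
  have hP' := hP.of_append_left
  have e3 := path_eq hT hP' (rp_isPath hT ρ u)
  unfold Anc
  rw [← e3, Walk.mem_support_append_iff]
  exact Or.inl (Walk.end_mem_support _)

theorem anc_total (hT : T.IsTree) {ρ z z' v : V} (h : Anc hT ρ z v) (h' : Anc hT ρ z' v) :
    Anc hT ρ z z' ∨ Anc hT ρ z' z := by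
  have e1 : ((rp hT ρ v).takeUntil z h).append ((rp hT ρ v).dropUntil z h) = rp hT ρ v :=
    Walk.take_spec _ _
  have h2 : z' ∈ (((rp hT ρ v).takeUntil z h).append ((rp hT ρ v).dropUntil z h)).support := by
    rw [e1]; exact h'
  rw [Walk.mem_support_append_iff] at h2
  rcases h2 with h2 | h2
  · rw [rp_takeUntil] at h2
    exact Or.inr h2
  · exact Or.inl (anc_of_drop hT h h2).1

/-- The path between comparable vertices. -/
theorem path_anc (hT : T.IsTree) {ρ z z' : V} (h : Anc hT ρ z z') {p : T.Walk z z'}
    (hp : p.IsPath) {u : V} (hu : u ∈ p.support) : Anc hT ρ z u ∧ Anc hT ρ u z' := by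
  have e : p = (rp hT ρ z').dropUntil z h :=
    path_eq hT hp ((rp_isPath hT ρ z').dropUntil h)
  rw [e] at hu
  exact anc_of_drop hT h hu

/-- The path between arbitrary vertices. -/
theorem path_anc' (hT : T.IsTree) (ρ : V) {z z' : V} {p : T.Walk z z'}
    (hp : p.IsPath) {u : V} (hu : u ∈ p.support) : Anc hT ρ u z ∨ Anc hT ρ u z' := by
  have e : p = ((rp hT ρ z).reverse.append (rp hT ρ z')).bypass :=
    path_eq hT hp (Walk.bypass_isPath _)
  rw [e] at hu
  have := Walk.support_bypass_subset _ hu
  rw [Walk.mem_support_append_iff, Walk.support_reverse, List.mem_reverse] at this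
  exact this

/-- **G4, marked vertices in a tree.** -/
theorem good_tuple (hT : T.IsTree) (X : Finset V) (r : ℕ) (hX : (r - 1) ^ 2 < X.card) :
    ∃ x : Fin r → V, Function.Injective x ∧ (∀ i, x i ∈ X) ∧
      ∀ i j : Fin r, (i : ℕ) + 1 = j → ∀ p : T.Walk (x i) (x j), p.IsPath →
        ∀ k, x k ∈ p.support → k = i ∨ k = j := by
  classical
  have hne : X.Nonempty := by
    rw [← Finset.card_pos]; omega
  obtain ⟨ρ, -⟩ := hne
  set f : V → ℕ := fun v => (X.filter (fun u => Anc hT ρ u v)).card with hf
  have fmono : ∀ u v, Anc hT ρ u v → f u ≤ f v := by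
    intro u v h
    apply Finset.card_le_card
    intro w hw
    rw [Finset.mem_filter] at hw ⊢
    exact ⟨hw.1, anc_trans hT hw.2 h⟩
  have fstrict : ∀ u v, Anc hT ρ u v → u ≠ v → v ∈ X → f u < f v := by
    intro u v h hne hv
    apply Finset.card_lt_card
    rw [Finset.ssubset_iff_of_subset]
    · refine ⟨v, ?_, ?_⟩
      · rw [Finset.mem_filter]; exact ⟨hv, anc_refl hT ρ v⟩
      · rw [Finset.mem_filter]
        rintro ⟨-, h'⟩
        exact hne (anc_antisymm hT h h')
    · intro w hw
      rw [Finset.mem_filter] at hw ⊢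
      exact ⟨hw.1, anc_trans hT hw.2 h⟩
  by_cases hc : ∃ v ∈ X, r ≤ f v
  · -- a chain
    obtain ⟨v, hv, hfv⟩ := hc
    set S := X.filter (fun u => Anc hT ρ u v) with hS
    have hSc : S.card = f v := rfl
    have hinj : Set.InjOn f S := by
      intro a ha b hb hab
      rw [Finset.mem_coe, hS, Finset.mem_filter] at ha hb
      by_contra hne
      rcases anc_total hT ha.2 hb.2 with h | h
      · have := fstrict a b h hne hb.1
        omega
      · have := fstrict b a h (Ne.symm hne) ha.1
        omega
    have himg : S.image f = Finset.Icc 1 (f v) := by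
      apply Finset.eq_of_subset_of_card_le
      · intro n hn
        rw [Finset.mem_image] at hn
        obtain ⟨a, ha, rfl⟩ := hn
        rw [hS, Finset.mem_filter] at ha
        rw [Finset.mem_Icc]
        refine ⟨?_, fmono a v ha.2⟩
        apply Finset.card_pos.2
        exact ⟨a, by rw [Finset.mem_filter]; exact ⟨ha.1, anc_refl hT ρ a⟩⟩
      · rw [Finset.card_image_of_injOn hinj, Nat.card_Icc, hSc]
        omega
    have hex : ∀ i : Fin r, ∃ a, a ∈ X ∧ Anc hT ρ a v ∧ f a = (i : ℕ) + 1 := by
      intro i
      have : (i : ℕ) + 1 ∈ S.image f := by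
        rw [himg, Finset.mem_Icc]
        have := i.2
        omega
      rw [Finset.mem_image] at this
      obtain ⟨a, ha, hfa⟩ := this
      rw [hS, Finset.mem_filter] at ha
      exact ⟨a, ha.1, ha.2, hfa⟩
    choose x hxX hxv hxf using hex
    refine ⟨x, ?_, hxX, ?_⟩
    · intro i j hij
      have h1 := hxf i
      rw [hij, hxf j] at h1
      exact Fin.ext (by omega)
    · intro i j hij p hp k hk
      have hAij : Anc hT ρ (x i) (x j) := by
        rcases anc_total hT (hxv i) (hxv j) with h | h
        · exact h
        · have := fmono _ _ h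
          rw [hxf, hxf] at this
          omega
      obtain ⟨h1, h2⟩ := path_anc hT hAij hp hk
      have h3 := fmono _ _ h1
      have h4 := fmono _ _ h2
      rw [hxf, hxf] at h3 h4
      rcases Nat.lt_or_ge (i : ℕ) k with h | h
      · right; exact Fin.ext (by omega)
      · left; exact Fin.ext (by omega)
  · -- an antichain
    push Not at hc
    have hmap : ∀ v ∈ X, f v ∈ Finset.Icc 1 (r - 1) := by
      intro v hv
      rw [Finset.mem_Icc]
      refine ⟨?_, by have := hc v hv; omega⟩
      apply Finset.card_pos.2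
      exact ⟨v, by rw [Finset.mem_filter]; exact ⟨hv, anc_refl hT ρ v⟩⟩
    have hcard : (Finset.Icc 1 (r - 1)).card * (r - 1) < X.card := by
      rw [Nat.card_Icc]
      have : r - 1 + 1 - 1 = r - 1 := by omega
      rw [this, ← sq]
      exact hX
    obtain ⟨n, -, hn⟩ := Finset.exists_lt_card_fiber_of_mul_lt_card_of_maps_to hmap hcard
    have hn' : r ≤ (X.filter (fun v => f v = n)).card := by omega
    obtain ⟨Y, hYs, hYc⟩ := Finset.exists_subset_card_eq hn'
    let e := (Y.equivFinOfCardEq hYc).symm
    refine ⟨fun i => (e i : V), ?_, ?_, ?_⟩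
    · intro i j hij
      exact e.injective (Subtype.ext hij)
    · intro i
      have := hYs (e i).2
      rw [Finset.mem_filter] at this
      exact this.1
    · intro i j hij p hp k hk
      have hfe : ∀ i, f (e i : V) = n := by
        intro i
        have := hYs (e i).2
        rw [Finset.mem_filter] at this
        exact this.2
      have hXe : ∀ i, (e i : V) ∈ X := by
        intro i
        have := hYs (e i).2
        rw [Finset.mem_filter] at this
        exact this.1
      rcases path_anc' hT ρ hp hk with h | h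
      · left
        by_contra hne
        have := fstrict _ _ h (fun h' => hne (e.injective (Subtype.ext h'))) (hXe i)
        rw [hfe, hfe] at this
        omega
      · right
        by_contra hne
        have := fstrict _ _ h (fun h' => hne (e.injective (Subtype.ext h'))) (hXe j)
        rw [hfe, hfe] at this
        omega

/-- **G4**, plain form: a finite tree with more than `(r-1)^2` vertices (in particular one with at
least `r(r-1)` vertices, `r ≥ 2`). -/
theorem good_tuple_card [Fintype V] (hT : T.IsTree) (r : ℕ) (hX : (r - 1) ^ 2 < Fintype.card V) :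
    ∃ x : Fin r → V, Function.Injective x ∧
      ∀ i j : Fin r, (i : ℕ) + 1 = j → ∀ p : T.Walk (x i) (x j), p.IsPath →
        ∀ k, x k ∈ p.support → k = i ∨ k = j := by
  obtain ⟨x, h1, -, h3⟩ := good_tuple hT Finset.univ r (by simpa using hX)
  exact ⟨x, h1, h3⟩

end Tree

/-- **G4 for connected graphs**: consecutive members of the tuple are joined by paths which avoid
the other members. -/
theorem good_tuple_connected {V : Type*} [Fintype V] {G : SimpleGraph V}
    (hG : G.Connected) (X : Finset V) (r : ℕ) (hX : (r - 1) ^ 2 < X.card) :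
    ∃ x : Fin r → V, Function.Injective x ∧ (∀ i, x i ∈ X) ∧
      ∀ i j : Fin r, (i : ℕ) + 1 = j → ∃ p : G.Walk (x i) (x j), p.IsPath ∧
        ∀ k, x k ∈ p.support → k = i ∨ k = j := by
  classical
  obtain ⟨T, hTG, hT⟩ := hG.exists_isTree_le
  obtain ⟨x, h1, h2, h3⟩ := good_tuple hT X r hX
  refine ⟨x, h1, h2, ?_⟩
  intro i j hij
  obtain ⟨p, hp, -⟩ := hT.existsUnique_path (x i) (x j)
  refine ⟨p.mapLe hTG, ?_, ?_⟩
  · exact hp.mapLe hTG
  · intro k hk
    rw [Walk.support_mapLe_eq_support] at hk
    exact h3 i j hij p hp k hk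

end Vale.Agent.P235.H949
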